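import Vale.Agent.P097.H509.St.Defs
import Vale.Agent.P097.H845.St.ChainP
import Vale.Agent.P097.H194.St.Pick

/-!
# P097 / (A5) block T, straight windows, row ST-3 (iii): size bound => oscillation bound (H)
-/

set_option linter.all false

open Complex Metric Filter Topology Set
open scoped ComplexConjugate

namespace Vale.Agent.P097.H514.St

open Vale.Agent.P097.TC Vale.Agent.P097.H226.W Vale.Agent.P097.H845.St Vale.Agent.P097.H509.St

theorem Pc_sub {X om y x h ρ : ℝ} (hom : 0 < om) (hh : 0 < h) (h1 : |y| + X * h < ρ)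
    (h2 : |x| + X * h < ρ) : Pc X om y x h ⊆ Bx ρ ∩ Qu := by
  rintro z ⟨u1, u2, u3, u4, u5, u6⟩
  have q : 0 < om * h := mul_pos hom hh
  have a1 := abs_nonneg y
  refine ⟨⟨?_, ?_, ?_, ?_⟩, ?_, ?_⟩
  · have : z.1.re = (z.1.re - y) + y := by ring
    rw [this]
    exact (abs_add_le _ _).trans_lt (by linarith)
  · rw [abs_lt]; constructor <;> linarith
  · have : z.2.re = (z.2.re - x) + x := by ring
    rw [this]
    exact (abs_add_le _ _).trans_lt (by linarith)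
  · rw [abs_lt]; constructor <;> linarith
  · linarith
  · linarith

theorem contLL {Λ b : ℝ} {F q : ℂ → ℂ} {al p th : ℂ × ℂ → ℂ} (W : SQ Λ b F q 1 al p th) :
    ContinuousOn (LL al p) (Bx 1 ∩ Qu) :=
  W.dal.continuousOn.prodMk W.dp.continuousOn

/-- the class of windows stays in the box -/
theorem Pc_cls {X om y x h : ℝ} (hX : 0 < X) (hom : 0 < om) (hy : |y| ≤ 1 / 4) (hx : |x| ≤ 1 / 4)
    (hh : 0 < h) (hr : h ≤ 1 / (4 * X)) : Pc X om y x h ⊆ Bx 1 ∩ Qu := by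
  have h1 : X * h ≤ 1 / 4 := by
    rw [le_div_iff₀ (by positivity)] at hr
    linarith
  exact Pc_sub hom hh (by linarith) (by linarith)

/-- small size: honest oscillation bound on the piece -/
theorem H_of {Λ b : ℝ} {F q : ℂ → ℂ} {al p th : ℂ × ℂ → ℂ} (W : SQ Λ b F q 1 al p th)
    {X om y x h M : ℝ} (hX : 0 < X) (hom : 0 < om) (hy : |y| ≤ 1 / 4) (hx : |x| ≤ 1 / 4)
    (hh : 0 < h) (hr : h ≤ 1 / (4 * X)) (hE : Es (LL al p) X om y x h ≤ M) (hM : M < 1) :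
    ∀ z ∈ Pc X om y x h, ∀ z' ∈ Pc X om y x h, ‖al z - al z'‖ ≤ M ∧ ‖p z - p z'‖ ≤ M := by
  intro z hz z' hz'
  have hc : ContinuousOn (LL al p) (Pc X om y x h) :=
    (contLL W).mono (Pc_cls hX hom hy hx hh hr)
  have hb : Bornology.IsBounded (LL al p '' Pc X om y x h) :=
    ((H845.StP.isCompact_Pc _ _ _ _ _).image_of_continuousOn hc).isBounded
  have h1 := dist_le_diam_of_mem hb (mem_image_of_mem (LL al p) hz) (mem_image_of_mem (LL al p) hz')
  have h2 : diam (LL al p '' Pc X om y x h) ≤ M := by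
    rcases min_le_iff.1 hE with h | h
    · linarith
    · exact h
  have h3 := h1.trans h2
  rw [dist_eq_norm, Prod.norm_def] at h3
  exact ⟨(le_max_left _ _).trans h3, (le_max_right _ _).trans h3⟩

theorem Es01 (L : ℂ × ℂ → ℂ × ℂ) (X om : ℝ) (y x h : ℝ) :
    0 ≤ Es L X om y x h ∧ Es L X om y x h ≤ 1 :=
  ⟨le_min zero_le_one diam_nonneg, min_le_left _ _⟩

/-- (H) of the pick in the form of the ancestor row -/
theorem hH_of_pk {Λ b : ℝ} {F q : ℂ → ℂ} {al p th : ℂ × ℂ → ℂ} (W : SQ Λ b F q 1 al p th)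
    {A B : Set ℝ} {X om η ρ₀ y' y x r : ℝ} {m i : ℕ} (hX : 0 < X) (hom : 0 < om)
    (P : H194.St.Pk (Es (LL al p) X om) A B η ρ₀ (1 / 4) (1 / (4 * X)) y' m i y x r)
    {D : ℝ} (hD : D ≤ |y' - y| + |x| + (1 / 2) ^ (m + i) + r) (hD' : D ≤ 1 / (4 * X)) :
    ∀ h, r ≤ h → h ≤ D → 12 * (r / h) ^ 2 < 1 → ∀ z ∈ Pc X om y x h, ∀ z' ∈ Pc X om y x h,
      ‖al z - al z'‖ ≤ 12 * (r / h) ^ 2 ∧ ‖p z - p z'‖ ≤ 12 * (r / h) ^ 2 := by
  intro h h1 h2 h3
  have hh : 0 < h := P.r0.trans_le h1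
  have h4 := P.ab h h1 (h2.trans hD) (h2.trans hD')
  have h5 := (Es01 (LL al p) X om y x r).2
  have h6 : Es (LL al p) X om y x h ≤ 12 * (r / h) ^ 2 := by
    refine h4.trans ?_
    have : 0 ≤ (r / h) ^ 2 := by positivity
    nlinarith
  exact H_of W hX hom P.hy P.hx hh (h2.trans hD') h6 h3

end Vale.Agent.P097.H514.St
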